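import Vale.Agent.P122.Main

open MeasureTheory

namespace Vale.Agent.Results.P122.Equivariant

open Vale.Agent.P122

theorem result (p : ℝ) (hp : 3 < p) : ∃ C : NNReal, ∀ (k : ℤ) (f : E3 → ℂ), Measurable f →
    MemLp f (ENNReal.ofReal p) sig →
    (∀ (θ : ℝ) (u : ℝ × ℝ), u.1 ^ 2 + u.2 ^ 2 ≤ 1 →
      f (rot θ (par u)) = Complex.exp (k * θ * Complex.I) * f (par u)) →
    eLpNorm (extOp f) (ENNReal.ofReal p) volume ≤ C * eLpNorm f (ENNReal.ofReal p) sig :=
  main hp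

end Vale.Agent.Results.P122.Equivariant
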