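import Vale.Agent.P122R.Main

open MeasureTheory

namespace Vale.Agent.Results.P122.Revolution

open Vale.Agent.P122R

theorem result (P : ℝ → ℝ) (a b : ℝ) (hP : ContDiff ℝ 2 P) (h0 : ∀ s ∈ Set.Icc a b, 0 ≤ P s)
    (hK : ∀ s ∈ Set.Icc a b, 2 * P s * deriv (deriv P) s < deriv P s ^ 2) (p : ℝ) (hp : 3 < p) :
    ∃ C : NNReal, ∀ (k : ℤ) (f : E3 → ℂ), Measurable f →
      MemLp f (ENNReal.ofReal p) (sigR P a b) →
      (∀ (θ : ℝ) (z : ℝ × ℝ), z.1 ∈ Set.Icc a b →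
        f (rot θ (prm P z)) = Complex.exp (k * θ * Complex.I) * f (prm P z)) →
      eLpNorm (extR (sigR P a b) f) (ENNReal.ofReal p) volume ≤
        C * eLpNorm f (ENNReal.ofReal p) (sigR P a b) :=
  mainR ⟨hP, h0, hK⟩ hp

end Vale.Agent.Results.P122.Revolution
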